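import Mathlib

/-!
Abstract matrix core of the inequality for two disjoint vertex pairs in the
switch-chain project on simple graphs (problem P335).

`Fe`, `Fe'` are the heat baths of the two pairs, `FB` the heat bath of the
shared block, `Ft`, `Ft'` the heat baths of the outer slots of the two pairs.
With `Q = 1 - F` and `E = FB * Ft * Ft'` the lemma `pair_core` says
`<Qe v, Qe' v> >= <v, QB v> + <E Qe v, E Qe' v>`.
-/

namespace Vale.Agent.Helper18.KTV

open Matrix

section Ring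

variable {R : Type*} [Ring R]

/-- The product of two commuting idempotents is idempotent. -/
theorem idem_mul_of_comm {p q : R} (hp : p * p = p) (hq : q * q = q) (hpq : p * q = q * p) :
    (p * q) * (p * q) = p * q := by
  calc (p * q) * (p * q) = p * (q * p) * q := by noncomm_ring
    _ = p * (p * q) * q := by rw [hpq]
    _ = (p * p) * (q * q) := by noncomm_ring
    _ = p * q := by rw [hp, hq]

/-- The complement of an idempotent is idempotent. -/
theorem idem_one_sub {p : R} (hp : p * p = p) : (1 - p) * (1 - p) = 1 - p := by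
  have : (1 - p) * (1 - p) = 1 - p - p + p * p := by noncomm_ring
  rw [this, hp]
  noncomm_ring

/-- The difference of two nested idempotents is idempotent. -/
theorem idem_sub_of_le {p q : R} (hp : p * p = p) (hq : q * q = q) (hpq : p * q = q)
    (hqp : q * p = q) : (p - q) * (p - q) = p - q := by
  have : (p - q) * (p - q) = p * p - p * q - q * p + q * q := by noncomm_ring
  rw [this, hp, hq, hpq, hqp]
  noncomm_ring

/-- The five-term expansion of the product of the two complements. -/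
theorem pair_expand {a a' b t t' : R}
    (hbt : b * t = t * b) (hab : a * b = a) (hba : b * a = a) (hat : a * t = a)
    (hba' : b * a' = a') (ht'a' : t' * a' = a') :
    (1 - a) * (1 - a') = (1 - b) + b * (1 - t) * (1 - t') + b * (1 - t) * (t' - a')
      + b * (t - a) * (1 - t') + (1 - a) * (b * t * t') * (1 - a') := by
  have e1 : b * (1 - t) * (1 - t') = b - b * t - b * t' + b * t * t' := by noncomm_ring
  have e2 : b * (1 - t) * (t' - a') = b * t' - a' - b * t * t' + t * a' := by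
    have : b * (1 - t) * (t' - a') = b * t' - b * a' - b * t * t' + (b * t) * a' := by
      noncomm_ring
    rw [this, hba', hbt, mul_assoc t b a', hba']
  have e3 : b * (t - a) * (1 - t') = b * t - a - b * t * t' + a * t' := by
    have : b * (t - a) * (1 - t') = b * t - b * a - b * t * t' + (b * a) * t' := by
      noncomm_ring
    rw [this, hba]
  have e4 : (1 - a) * (b * t * t') * (1 - a') = b * t * t' - a * t' - t * a' + a * a' := by
    have : (1 - a) * (b * t * t') * (1 - a')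
        = b * t * t' - ((a * b) * t) * t' - (b * t) * (t' * a') + ((a * b) * t) * (t' * a') := by
      noncomm_ring
    rw [this, hab, hat, ht'a', hbt, mul_assoc t b a', hba']
  rw [e1, e2, e3, e4]
  noncomm_ring

end Ring

section Mat

set_option linter.unusedSectionVars false

variable {n : Type*} [Fintype n] [DecidableEq n]

/-- A symmetric matrix moves across the dot product. -/
theorem symm_dot (M : Matrix n n ℝ) (hM : M.transpose = M) (f g : n → ℝ) :
    (M *ᵥ f) ⬝ᵥ g = f ⬝ᵥ (M *ᵥ g) := by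
  rw [Matrix.dotProduct_mulVec, ← Matrix.vecMul_transpose, hM]

/-- The quadratic form of a symmetric idempotent matrix is nonnegative. -/
theorem proj_quad_nonneg (M : Matrix n n ℝ) (hM : M.transpose = M) (hMM : M * M = M)
    (v : n → ℝ) : 0 ≤ v ⬝ᵥ (M *ᵥ v) := by
  have h : v ⬝ᵥ (M *ᵥ v) = (M *ᵥ v) ⬝ᵥ (M *ᵥ v) := by
    rw [symm_dot M hM, Matrix.mulVec_mulVec, hMM]
  rw [h]
  exact Finset.sum_nonneg (fun x _ => mul_self_nonneg _)

theorem transpose_mul_of_comm {P Q : Matrix n n ℝ} (hP : P.transpose = P)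
    (hQ : Q.transpose = Q) (hPQ : P * Q = Q * P) : (P * Q).transpose = P * Q := by
  rw [Matrix.transpose_mul, hP, hQ, hPQ]

theorem transpose_one_sub {P : Matrix n n ℝ} (hP : P.transpose = P) :
    (1 - P).transpose = 1 - P := by
  rw [Matrix.transpose_sub, Matrix.transpose_one, hP]

/-- Abstract core of the inequality for two disjoint pairs. -/
theorem pair_core (Fe Fe' FB Ft Ft' : Matrix n n ℝ)
    (sFe : Fe.transpose = Fe) (sFe' : Fe'.transpose = Fe') (sFB : FB.transpose = FB)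
    (sFt : Ft.transpose = Ft) (sFt' : Ft'.transpose = Ft')
    (iFe : Fe * Fe = Fe) (iFe' : Fe' * Fe' = Fe') (iFB : FB * FB = FB)
    (iFt : Ft * Ft = Ft) (iFt' : Ft' * Ft' = Ft')
    (hBt : FB * Ft = Ft * FB) (hBt' : FB * Ft' = Ft' * FB) (htt' : Ft * Ft' = Ft' * Ft)
    (heB : Fe * FB = Fe) (het : Fe * Ft = Fe)
    (he'B : Fe' * FB = Fe') (he't' : Fe' * Ft' = Fe')
    (het' : Fe * Ft' = Ft' * Fe) (he't : Fe' * Ft = Ft * Fe')
    (v : n → ℝ) :
    v ⬝ᵥ ((1 - FB) *ᵥ v)
        + ((FB * Ft * Ft') *ᵥ ((1 - Fe) *ᵥ v)) ⬝ᵥ ((FB * Ft * Ft') *ᵥ ((1 - Fe') *ᵥ v))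
      ≤ ((1 - Fe) *ᵥ v) ⬝ᵥ ((1 - Fe') *ᵥ v) := by
  -- transposed relations
  have hBe : FB * Fe = Fe := by
    have := congrArg Matrix.transpose heB
    rwa [Matrix.transpose_mul, sFe, sFB] at this
  have hte : Ft * Fe = Fe := by
    have := congrArg Matrix.transpose het
    rwa [Matrix.transpose_mul, sFe, sFt] at this
  have hBe' : FB * Fe' = Fe' := by
    have := congrArg Matrix.transpose he'B
    rwa [Matrix.transpose_mul, sFe', sFB] at this
  have ht'e' : Ft' * Fe' = Fe' := by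
    have := congrArg Matrix.transpose he't'
    rwa [Matrix.transpose_mul, sFe', sFt'] at this
  -- the expansion
  have hexp := pair_expand (a := Fe) (a' := Fe') (b := FB) (t := Ft) (t' := Ft')
    hBt heB hBe het hBe' ht'e'
  -- the three middle terms are symmetric idempotents
  have s1t : (1 - Ft).transpose = 1 - Ft := transpose_one_sub sFt
  have s1t' : (1 - Ft').transpose = 1 - Ft' := transpose_one_sub sFt'
  have i1t : (1 - Ft) * (1 - Ft) = 1 - Ft := idem_one_sub iFt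
  have i1t' : (1 - Ft') * (1 - Ft') = 1 - Ft' := idem_one_sub iFt'
  have cB1t : FB * (1 - Ft) = (1 - Ft) * FB := by
    rw [mul_sub, sub_mul, mul_one, one_mul, hBt]
  have cB1t' : FB * (1 - Ft') = (1 - Ft') * FB := by
    rw [mul_sub, sub_mul, mul_one, one_mul, hBt']
  have c1t1t' : (1 - Ft) * (1 - Ft') = (1 - Ft') * (1 - Ft) := by
    have e1 : (1 - Ft) * (1 - Ft') = 1 - Ft - Ft' + Ft * Ft' := by noncomm_ring
    have e2 : (1 - Ft') * (1 - Ft) = 1 - Ft - Ft' + Ft' * Ft := by noncomm_ring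
    rw [e1, e2, htt']
  -- X = FB * (1 - Ft)
  have sX : (FB * (1 - Ft)).transpose = FB * (1 - Ft) := transpose_mul_of_comm sFB s1t cB1t
  have iX : (FB * (1 - Ft)) * (FB * (1 - Ft)) = FB * (1 - Ft) := idem_mul_of_comm iFB i1t cB1t
  -- P1 = FB (1 - Ft) (1 - Ft')
  have cX1t' : (FB * (1 - Ft)) * (1 - Ft') = (1 - Ft') * (FB * (1 - Ft)) := by
    rw [mul_assoc, c1t1t', ← mul_assoc, cB1t', mul_assoc]
  have sP1 : (FB * (1 - Ft) * (1 - Ft')).transpose = FB * (1 - Ft) * (1 - Ft') :=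
    transpose_mul_of_comm sX s1t' cX1t'
  have iP1 : (FB * (1 - Ft) * (1 - Ft')) * (FB * (1 - Ft) * (1 - Ft'))
      = FB * (1 - Ft) * (1 - Ft') := idem_mul_of_comm iX i1t' cX1t'
  -- P2 = FB (1 - Ft) (Ft' - Fe')
  have sD' : (Ft' - Fe').transpose = Ft' - Fe' := by
    rw [Matrix.transpose_sub, sFt', sFe']
  have iD' : (Ft' - Fe') * (Ft' - Fe') = Ft' - Fe' := idem_sub_of_le iFt' iFe' ht'e' he't'
  have cXD' : (FB * (1 - Ft)) * (Ft' - Fe') = (Ft' - Fe') * (FB * (1 - Ft)) := by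
    have e1 : (FB * (1 - Ft)) * (Ft' - Fe')
        = FB * Ft' - FB * Fe' - (FB * Ft) * Ft' + (FB * Ft) * Fe' := by noncomm_ring
    have e2 : (Ft' - Fe') * (FB * (1 - Ft))
        = Ft' * FB - Fe' * FB - (Ft' * FB) * Ft + (Fe' * FB) * Ft := by noncomm_ring
    rw [e1, e2, hBe', he'B, hBt, mul_assoc Ft FB Fe', hBe', ← hBt', mul_assoc FB Ft' Ft,
      ← htt', ← mul_assoc, hBt, he't]
  have sP2 : (FB * (1 - Ft) * (Ft' - Fe')).transpose = FB * (1 - Ft) * (Ft' - Fe') :=
    transpose_mul_of_comm sX sD' cXD'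
  have iP2 : (FB * (1 - Ft) * (Ft' - Fe')) * (FB * (1 - Ft) * (Ft' - Fe'))
      = FB * (1 - Ft) * (Ft' - Fe') := idem_mul_of_comm iX iD' cXD'
  -- P3 = FB (Ft - Fe) (1 - Ft')
  have sD : (Ft - Fe).transpose = Ft - Fe := by
    rw [Matrix.transpose_sub, sFt, sFe]
  have iD : (Ft - Fe) * (Ft - Fe) = Ft - Fe := idem_sub_of_le iFt iFe hte het
  have cBD : FB * (Ft - Fe) = (Ft - Fe) * FB := by
    rw [mul_sub, sub_mul, hBt, hBe, heB]
  have sY : (FB * (Ft - Fe)).transpose = FB * (Ft - Fe) := transpose_mul_of_comm sFB sD cBD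
  have iY : (FB * (Ft - Fe)) * (FB * (Ft - Fe)) = FB * (Ft - Fe) := idem_mul_of_comm iFB iD cBD
  have cY1t' : (FB * (Ft - Fe)) * (1 - Ft') = (1 - Ft') * (FB * (Ft - Fe)) := by
    have e1 : (FB * (Ft - Fe)) * (1 - Ft')
        = FB * Ft - FB * Fe - (FB * Ft) * Ft' + (FB * Fe) * Ft' := by noncomm_ring
    have e2 : (1 - Ft') * (FB * (Ft - Fe))
        = FB * Ft - FB * Fe - (Ft' * FB) * Ft + (Ft' * FB) * Fe := by noncomm_ring
    rw [e1, e2, hBe, ← hBt', mul_assoc FB Ft' Ft, ← htt', ← mul_assoc, mul_assoc FB Ft' Fe,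
      ← het', ← mul_assoc, hBe]
  have sP3 : (FB * (Ft - Fe) * (1 - Ft')).transpose = FB * (Ft - Fe) * (1 - Ft') :=
    transpose_mul_of_comm sY s1t' cY1t'
  have iP3 : (FB * (Ft - Fe) * (1 - Ft')) * (FB * (Ft - Fe) * (1 - Ft'))
      = FB * (Ft - Fe) * (1 - Ft') := idem_mul_of_comm iY i1t' cY1t'
  -- E = FB Ft Ft'
  have cBtt' : (FB * Ft) * Ft' = Ft' * (FB * Ft) := by
    rw [mul_assoc, htt', ← mul_assoc, hBt', mul_assoc]
  have sBt : (FB * Ft).transpose = FB * Ft := transpose_mul_of_comm sFB sFt hBt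
  have iBt : (FB * Ft) * (FB * Ft) = FB * Ft := idem_mul_of_comm iFB iFt hBt
  have sE : (FB * Ft * Ft').transpose = FB * Ft * Ft' := transpose_mul_of_comm sBt sFt' cBtt'
  have iE : (FB * Ft * Ft') * (FB * Ft * Ft') = FB * Ft * Ft' :=
    idem_mul_of_comm iBt iFt' cBtt'
  -- assemble
  have sQe : (1 - Fe).transpose = 1 - Fe := transpose_one_sub sFe
  have h0 : ((1 - Fe) *ᵥ v) ⬝ᵥ ((1 - Fe') *ᵥ v) = v ⬝ᵥ (((1 - Fe) * (1 - Fe')) *ᵥ v) := by
    rw [symm_dot _ sQe, Matrix.mulVec_mulVec]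
  have h5 : ((FB * Ft * Ft') *ᵥ ((1 - Fe) *ᵥ v)) ⬝ᵥ ((FB * Ft * Ft') *ᵥ ((1 - Fe') *ᵥ v))
      = v ⬝ᵥ (((1 - Fe) * (FB * Ft * Ft') * (1 - Fe')) *ᵥ v) := by
    rw [symm_dot _ sE, Matrix.mulVec_mulVec, iE, symm_dot _ sQe, Matrix.mulVec_mulVec,
      Matrix.mulVec_mulVec, ← mul_assoc]
  rw [h0, h5, hexp]
  simp only [Matrix.add_mulVec, dotProduct_add]
  have p1 := proj_quad_nonneg _ sP1 iP1 v
  have p2 := proj_quad_nonneg _ sP2 iP2 v
  have p3 := proj_quad_nonneg _ sP3 iP3 v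
  linarith

end Mat

end Vale.Agent.Helper18.KTV
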