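import Vale.Agent.Helper16.KTV.Bridge
import Vale.Agent.Helper18.KTV.PairCore

/-!
Abstract cross-term estimate for the inequality of two disjoint vertex pairs in the
switch-chain project on simple graphs (problem P335).  Everything is in the language of
conditional expectations `KTV.cexpL` on a finite set; no graphs occur here.
-/

namespace Vale.Agent.Helper18.KTV

open Finset Matrix
open Classical

section

variable {X : Type*}

/-- Cutting a function down to a union of classes commutes with the conditional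
expectation. -/
theorem cexpL_indicator {Λ : Type*} (Om : Finset X) (lab : X → Λ) (S : X → Prop)
    (hS : ∀ x ∈ Om, ∀ y ∈ Om, lab x = lab y → (S x ↔ S y)) (f : X → ℝ) {x : X}
    (hx : x ∈ Om) :
    _root_.KTV.cexpL Om lab (fun y => if S y then f y else 0) x
      = if S x then _root_.KTV.cexpL Om lab f x else 0 := by
  rw [_root_.KTV.cexpL_eq]
  by_cases h : S x
  · rw [if_pos h, _root_.KTV.cexpL_eq]
    congr 1
    apply Finset.sum_congr rfl
    intro y hy
    rw [if_pos ((hS y (mem_filter.mp hy).1 x hx (mem_filter.mp hy).2).2 h)]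
  · rw [if_neg h]
    have h0 : ∀ y ∈ Om.filter (fun y => lab y = lab x), (if S y then f y else 0) = (0 : ℝ) := by
      intro y hy
      rw [if_neg (fun hy' => h ((hS y (mem_filter.mp hy).1 x hx (mem_filter.mp hy).2).1 hy'))]
    rw [Finset.sum_congr rfl h0]
    simp

/-- The conditional expectation does not increase the sum of squares. -/
theorem sum_cexpL_sq_le {Λ : Type*} (Om : Finset X) (lab : X → Λ) (g : X → ℝ) :
    ∑ x ∈ Om, _root_.KTV.cexpL Om lab g x ^ 2 ≤ ∑ x ∈ Om, g x ^ 2 := by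
  have h := _root_.KTV.sum_sub_cexpL_sq Om lab g
  have h0 : 0 ≤ ∑ x ∈ Om, (g x - _root_.KTV.cexpL Om lab g x) ^ 2 :=
    Finset.sum_nonneg fun _ _ => sq_nonneg _
  linarith

/-- Restricted Jensen: on a union of classes the conditional expectation does not increase
the sum of squares. -/
theorem sum_filter_cexpL_sq_le {Λ : Type*} (Om : Finset X) (lab : X → Λ) (S : X → Prop)
    (hS : ∀ x ∈ Om, ∀ y ∈ Om, lab x = lab y → (S x ↔ S y)) (h : X → ℝ) :
    ∑ x ∈ Om.filter S, _root_.KTV.cexpL Om lab h x ^ 2 ≤ ∑ x ∈ Om.filter S, h x ^ 2 := by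
  have e1 : ∑ x ∈ Om.filter S, _root_.KTV.cexpL Om lab h x ^ 2
      = ∑ x ∈ Om, _root_.KTV.cexpL Om lab (fun y => if S y then h y else 0) x ^ 2 := by
    rw [Finset.sum_filter]
    apply Finset.sum_congr rfl
    intro x hx
    rw [cexpL_indicator Om lab S hS h hx]
    by_cases hs : S x
    · rw [if_pos hs, if_pos hs]
    · rw [if_neg hs, if_neg hs]; simp
  have e2 : ∑ x ∈ Om.filter S, h x ^ 2 = ∑ x ∈ Om, (fun y => if S y then h y else 0) x ^ 2 := by
    rw [Finset.sum_filter]
    apply Finset.sum_congr rfl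
    intro x _
    by_cases hs : S x
    · simp [hs]
    · simp [hs]
  rw [e1, e2]
  exact sum_cexpL_sq_le Om lab _

/-- If two conditional expectations commute on the function `g`, the cross term of the two
complementary projections of `g` is nonnegative. -/
theorem cross_nonneg_of_comm {Λ Λ' : Type*} (Om : Finset X) (lab : X → Λ) (lab' : X → Λ')
    (g : X → ℝ)
    (hc : ∀ x ∈ Om, _root_.KTV.cexpL Om lab (_root_.KTV.cexpL Om lab' g) x
      = _root_.KTV.cexpL Om lab' (_root_.KTV.cexpL Om lab g) x) :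
    0 ≤ ∑ x ∈ Om, (g x - _root_.KTV.cexpL Om lab g x) * (g x - _root_.KTV.cexpL Om lab' g x) := by
  have sQ : (1 - _root_.KTV.PM Om lab).transpose = 1 - _root_.KTV.PM Om lab :=
    transpose_one_sub (_root_.KTV.PM_transpose Om lab)
  have sQ' : (1 - _root_.KTV.PM Om lab').transpose = 1 - _root_.KTV.PM Om lab' :=
    transpose_one_sub (_root_.KTV.PM_transpose Om lab')
  have iQ : (1 - _root_.KTV.PM Om lab) * (1 - _root_.KTV.PM Om lab) = 1 - _root_.KTV.PM Om lab :=
    idem_one_sub (_root_.KTV.PM_idem Om lab)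
  have iQ' : (1 - _root_.KTV.PM Om lab') * (1 - _root_.KTV.PM Om lab')
      = 1 - _root_.KTV.PM Om lab' :=
    idem_one_sub (_root_.KTV.PM_idem Om lab')
  generalize hF : _root_.KTV.PM Om lab = F at sQ iQ
  generalize hF' : _root_.KTV.PM Om lab' = F' at sQ' iQ'
  set v := _root_.KTV.vec Om g with hv
  have hFv : F *ᵥ v = _root_.KTV.vec Om (_root_.KTV.cexpL Om lab g) := by
    rw [← hF, hv, _root_.KTV.PM_mulVec]
  have hF'v : F' *ᵥ v = _root_.KTV.vec Om (_root_.KTV.cexpL Om lab' g) := by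
    rw [← hF', hv, _root_.KTV.PM_mulVec]
  have hcv : F *ᵥ (F' *ᵥ v) = F' *ᵥ (F *ᵥ v) := by
    rw [hFv, hF'v, ← hF, ← hF', _root_.KTV.PM_mulVec, _root_.KTV.PM_mulVec]
    funext x
    exact hc x.1 x.2
  have hQQ : (1 - F) *ᵥ ((1 - F') *ᵥ v) = (1 - F') *ᵥ ((1 - F) *ᵥ v) := by
    simp only [Matrix.sub_mulVec, Matrix.one_mulVec, Matrix.mulVec_sub, hcv]
    abel
  have hsum : ∑ x ∈ Om, (g x - _root_.KTV.cexpL Om lab g x) * (g x - _root_.KTV.cexpL Om lab' g x)
      = ((1 - F) *ᵥ v) ⬝ᵥ ((1 - F') *ᵥ v) := by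
    rw [Matrix.sub_mulVec, Matrix.one_mulVec, Matrix.sub_mulVec, Matrix.one_mulVec, hFv, hF'v]
    have e1 : v - _root_.KTV.vec Om (_root_.KTV.cexpL Om lab g)
        = _root_.KTV.vec Om (fun x => g x - _root_.KTV.cexpL Om lab g x) := rfl
    have e2 : v - _root_.KTV.vec Om (_root_.KTV.cexpL Om lab' g)
        = _root_.KTV.vec Om (fun x => g x - _root_.KTV.cexpL Om lab' g x) := rfl
    rw [e1, e2, _root_.KTV.vec_dot]
  rw [hsum]
  have key : ((1 - F) *ᵥ v) ⬝ᵥ ((1 - F') *ᵥ v)
      = ((1 - F') *ᵥ ((1 - F) *ᵥ v)) ⬝ᵥ ((1 - F') *ᵥ ((1 - F) *ᵥ v)) := by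
    have s1 : ((1 - F) *ᵥ v) ⬝ᵥ ((1 - F') *ᵥ v)
        = ((1 - F) *ᵥ ((1 - F) *ᵥ v)) ⬝ᵥ ((1 - F') *ᵥ v) := by
      rw [Matrix.mulVec_mulVec, iQ]
    have s2 : ((1 - F) *ᵥ ((1 - F) *ᵥ v)) ⬝ᵥ ((1 - F') *ᵥ v)
        = ((1 - F) *ᵥ v) ⬝ᵥ ((1 - F) *ᵥ ((1 - F') *ᵥ v)) := symm_dot _ sQ _ _
    have s3 : (1 - F') *ᵥ ((1 - F) *ᵥ v) = (1 - F') *ᵥ ((1 - F') *ᵥ ((1 - F) *ᵥ v)) := by
      rw [Matrix.mulVec_mulVec (v := (1 - F) *ᵥ v) (1 - F') (1 - F'), iQ']
    have s4 : ((1 - F') *ᵥ ((1 - F) *ᵥ v)) ⬝ᵥ ((1 - F') *ᵥ ((1 - F) *ᵥ v))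
        = ((1 - F) *ᵥ v) ⬝ᵥ ((1 - F') *ᵥ ((1 - F') *ᵥ ((1 - F) *ᵥ v))) := symm_dot _ sQ' _ _
    rw [s1, s2, hQQ, s4, ← s3]
  rw [key]
  exact Finset.sum_nonneg fun x _ => mul_self_nonneg _

/-- **Abstract cross-term estimate.**  `Om` is covered by four events.  `Od` is a union of
classes of both pair labels on which the two pair heat baths commute; on `Cev` the first
pair heat bath is the heat bath of `lt`, on `Rev` the second one is that of `lt'`.  Then
for a function `psi` fixed by the heat baths of `lt` and `lt'` the cross term of the two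
pair projections is bounded below by minus half the two energies carried by `SB`. -/
theorem cross_abstract {L1 L2 L3 L4 : Type*} (Om : Finset X) (le : X → L1) (le' : X → L2)
    (lt : X → L3) (lt' : X → L4) (Od Cev Rev SB : X → Prop)
    (hcover : ∀ x ∈ Om, Od x ∨ Cev x ∨ Rev x ∨ SB x)
    (hoddE : ∀ x ∈ Om, ∀ y ∈ Om, le x = le y → (Od x ↔ Od y))
    (hoddE' : ∀ x ∈ Om, ∀ y ∈ Om, le' x = le' y → (Od x ↔ Od y))
    (hoddC : ∀ f : X → ℝ, ∀ x ∈ Om, Od x →
      _root_.KTV.cexpL Om le (_root_.KTV.cexpL Om le' f) x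
        = _root_.KTV.cexpL Om le' (_root_.KTV.cexpL Om le f) x)
    (hC : ∀ f : X → ℝ, ∀ x ∈ Om, Cev x →
      _root_.KTV.cexpL Om le f x = _root_.KTV.cexpL Om lt f x)
    (hR : ∀ f : X → ℝ, ∀ x ∈ Om, Rev x →
      _root_.KTV.cexpL Om le' f x = _root_.KTV.cexpL Om lt' f x)
    (psi : X → ℝ) (h1 : ∀ x ∈ Om, _root_.KTV.cexpL Om lt psi x = psi x)
    (h2 : ∀ x ∈ Om, _root_.KTV.cexpL Om lt' psi x = psi x) :
    -(1 / 2 : ℝ) * (∑ x ∈ Om.filter SB, (psi x - _root_.KTV.cexpL Om le psi x) ^ 2)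
        - (1 / 2 : ℝ) * (∑ x ∈ Om.filter SB, (psi x - _root_.KTV.cexpL Om le' psi x) ^ 2)
      ≤ ∑ x ∈ Om, (psi x - _root_.KTV.cexpL Om le psi x)
          * (psi x - _root_.KTV.cexpL Om le' psi x) := by
  -- the part on `Od`
  have e0 : ∀ x ∈ Om, _root_.KTV.cexpL Om le (fun y => if Od y then psi y else 0) x
      = if Od x then _root_.KTV.cexpL Om le psi x else 0 :=
    fun x hx => cexpL_indicator Om le Od hoddE psi hx
  have e0' : ∀ x ∈ Om, _root_.KTV.cexpL Om le' (fun y => if Od y then psi y else 0) x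
      = if Od x then _root_.KTV.cexpL Om le' psi x else 0 :=
    fun x hx => cexpL_indicator Om le' Od hoddE' psi hx
  have hcomm : ∀ x ∈ Om,
      _root_.KTV.cexpL Om le (_root_.KTV.cexpL Om le' (fun y => if Od y then psi y else 0)) x
        = _root_.KTV.cexpL Om le' (_root_.KTV.cexpL Om le (fun y => if Od y then psi y else 0)) x := by
    intro x hx
    by_cases h : Od x
    · exact hoddC _ x hx h
    · have z1 : _root_.KTV.cexpL Om le
          (_root_.KTV.cexpL Om le' (fun y => if Od y then psi y else 0)) x = 0 := by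
        rw [_root_.KTV.cexpL_congr Om le
          (g := fun y => if Od y then _root_.KTV.cexpL Om le' psi y else 0) e0' x,
          cexpL_indicator Om le Od hoddE _ hx, if_neg h]
      have z2 : _root_.KTV.cexpL Om le'
          (_root_.KTV.cexpL Om le (fun y => if Od y then psi y else 0)) x = 0 := by
        rw [_root_.KTV.cexpL_congr Om le'
          (g := fun y => if Od y then _root_.KTV.cexpL Om le psi y else 0) e0 x,
          cexpL_indicator Om le' Od hoddE' _ hx, if_neg h]
      rw [z1, z2]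
  have hodd := cross_nonneg_of_comm Om le le' (fun y => if Od y then psi y else 0) hcomm
  have hodd2 : ∑ x ∈ Om, ((fun y => if Od y then psi y else 0) x
        - _root_.KTV.cexpL Om le (fun y => if Od y then psi y else 0) x)
        * ((fun y => if Od y then psi y else 0) x
          - _root_.KTV.cexpL Om le' (fun y => if Od y then psi y else 0) x)
      = ∑ x ∈ Om, (if Od x then (psi x - _root_.KTV.cexpL Om le psi x)
          * (psi x - _root_.KTV.cexpL Om le' psi x) else 0) := by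
    apply Finset.sum_congr rfl
    intro x hx
    rw [e0 x hx, e0' x hx]
    by_cases h : Od x
    · simp [h]
    · simp [h]
  rw [hodd2] at hodd
  -- pointwise bound
  have hpt : ∀ x ∈ Om,
      (if SB x then -(1 / 2 : ℝ) * ((psi x - _root_.KTV.cexpL Om le psi x) ^ 2
          + (psi x - _root_.KTV.cexpL Om le' psi x) ^ 2) else 0)
        ≤ (psi x - _root_.KTV.cexpL Om le psi x) * (psi x - _root_.KTV.cexpL Om le' psi x)
          - (if Od x then (psi x - _root_.KTV.cexpL Om le psi x)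
              * (psi x - _root_.KTV.cexpL Om le' psi x) else 0) := by
    intro x hx
    have hneg : (if SB x then -(1 / 2 : ℝ) * ((psi x - _root_.KTV.cexpL Om le psi x) ^ 2
          + (psi x - _root_.KTV.cexpL Om le' psi x) ^ 2) else 0) ≤ 0 := by
      split_ifs
      · nlinarith [sq_nonneg (psi x - _root_.KTV.cexpL Om le psi x),
          sq_nonneg (psi x - _root_.KTV.cexpL Om le' psi x)]
      · exact le_refl _
    by_cases hO : Od x
    · rw [if_pos hO, sub_self]; exact hneg
    · rw [if_neg hO, sub_zero]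
      rcases hcover x hx with h | h | h | h
      · exact absurd h hO
      · have h0 : psi x - _root_.KTV.cexpL Om le psi x = 0 := by
          rw [hC psi x hx h, h1 x hx, sub_self]
        have hz : (psi x - _root_.KTV.cexpL Om le psi x)
            * (psi x - _root_.KTV.cexpL Om le' psi x) = 0 := by rw [h0, zero_mul]
        rw [hz]; exact hneg
      · have h0 : psi x - _root_.KTV.cexpL Om le' psi x = 0 := by
          rw [hR psi x hx h, h2 x hx, sub_self]
        have hz : (psi x - _root_.KTV.cexpL Om le psi x)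
            * (psi x - _root_.KTV.cexpL Om le' psi x) = 0 := by rw [h0, mul_zero]
        rw [hz]; exact hneg
      · rw [if_pos h]
        nlinarith [sq_nonneg ((psi x - _root_.KTV.cexpL Om le psi x)
          + (psi x - _root_.KTV.cexpL Om le' psi x))]
  have hsum := Finset.sum_le_sum hpt
  rw [Finset.sum_sub_distrib] at hsum
  have hL : -(1 / 2 : ℝ) * (∑ x ∈ Om.filter SB, (psi x - _root_.KTV.cexpL Om le psi x) ^ 2)
        - (1 / 2 : ℝ) * (∑ x ∈ Om.filter SB, (psi x - _root_.KTV.cexpL Om le' psi x) ^ 2)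
      = ∑ x ∈ Om, (if SB x then -(1 / 2 : ℝ) * ((psi x - _root_.KTV.cexpL Om le psi x) ^ 2
          + (psi x - _root_.KTV.cexpL Om le' psi x) ^ 2) else 0) := by
    rw [← Finset.sum_filter, Finset.mul_sum, Finset.mul_sum, ← Finset.sum_sub_distrib]
    apply Finset.sum_congr rfl
    intro x _
    ring
  rw [hL]
  linarith

end

end Vale.Agent.Helper18.KTV
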